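import Vale.Agent.P189.Main

open MeasureTheory Vale.Agent.P189

namespace Vale.Agent.Results.P189.NoFixedPrice

theorem result : ∃ (Γ : Type) (_ : Group Γ) (_ : Countable Γ), ¬ FixedPrice Γ ∧
    ∃ (X Y : Type) (_ : MeasurableSpace X) (_ : StandardBorelSpace X) (_ : MeasurableSpace Y)
      (_ : StandardBorelSpace Y) (μ : Measure X) (ν : Measure Y) (_ : IsProbabilityMeasure μ)
      (_ : IsProbabilityMeasure ν) (a : PMPAction Γ X μ) (b : PMPAction Γ Y ν),
      a.EssFree ∧ b.EssFree ∧ a.cost = ⊤ ∧ b.cost < ⊤ :=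
  Vale.Agent.P189.main

end Vale.Agent.Results.P189.NoFixedPrice
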